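import Vale.Agent.P267.H729.Rem

/-! P267 / H729: proper holomorphic maps from the end of a curve to a punctured disc:
fibres and norms. The curve is a topological space `C`; holomorphy is tested in charts. -/

open Set Filter Topology Metric

namespace Vale.Agent.P267.H729

variable {C : Type*} [TopologicalSpace C] {ι : Type*}

/-- `g` itself is a local coordinate at `p`, in which all `h i` are holomorphic -/
def Good (g : C → ℂ) (h : ι → C → ℂ) (p : C) : Prop :=
  ∃ c : OpenPartialHomeomorph C ℂ, p ∈ c.source ∧ (∀ x ∈ c.source, c x = g x) ∧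
    ∀ i, ∀ z ∈ c.target, AnalyticAt ℂ (h i ∘ c.symm) z

/-- `g` is constant near `p` -/
def LConst (g : C → ℂ) (p : C) : Prop := ∀ᶠ q in 𝓝 p, g q = g p

theorem isOpen_good (g : C → ℂ) (h : ι → C → ℂ) : IsOpen {p | Good g h p} := by
  rw [isOpen_iff_mem_nhds]
  rintro p ⟨c, hp, h1, h2⟩
  filter_upwards [c.open_source.mem_nhds hp] with q hq using ⟨c, hq, h1, h2⟩

theorem isOpen_lconst (g : C → ℂ) : IsOpen {p | LConst g p} := by
  rw [isOpen_iff_mem_nhds]
  intro p hp
  have h1 : ∀ᶠ q in 𝓝 p, g q = g p := hp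
  filter_upwards [h1.eventually_nhds, h1] with q hq hq1
  filter_upwards [hq] with r hr using hr.trans hq1.symm

theorem Good.not_lconst {g : C → ℂ} {h : ι → C → ℂ} {p : C} (hp : Good g h p) : ¬ LConst g p := by
  obtain ⟨c, hps, h1, -⟩ := hp
  intro hl
  have h2 : ∀ᶠ z in 𝓝 (c p), g (c.symm z) = g p := by
    have := c.tendsto_symm (x := p) hps
    exact this.eventually hl
  have h3 : ∀ᶠ z in 𝓝 (c p), g (c.symm z) = z := by
    filter_upwards [c.open_target.mem_nhds (c.map_source hps)] with z hz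
    rw [← h1 _ (c.map_target hz), c.right_inv hz]
  have h4 : ∀ᶠ z in 𝓝 (c p), z = g p := by
    filter_upwards [h2, h3] with z ha hb using hb.symm.trans ha
  have h5 : {g p} ∈ 𝓝 (c p) := h4
  have h6 : (𝓝[≠] (c p)).NeBot := inferInstance
  have h7 : c p = g p := h1 p hps
  rw [← h7] at h5
  have h8 : ∀ᶠ z in 𝓝[≠] (c p), False := by
    filter_upwards [mem_nhdsWithin_of_mem_nhds h5, self_mem_nhdsWithin] with z hz1 hz2
    exact hz2 hz1
  exact h6.ne (by simpa using h8)

/-- near a point where everything is holomorphic in a chart, `g` is locally constant or all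
other points are good. -/
theorem dichotomy [Finite ι] {g : C → ℂ} {h : ι → C → ℂ} {p : C} (e : OpenPartialHomeomorph C ℂ)
    (hp : p ∈ e.source) (hg : AnalyticAt ℂ (g ∘ e.symm) (e p))
    (hh : ∀ i, AnalyticAt ℂ (h i ∘ e.symm) (e p)) :
    LConst g p ∨ ∀ᶠ q in 𝓝[≠] p, Good g h q := by
  set G : ℂ → ℂ := g ∘ e.symm with hG
  -- everything analytic near e p
  have han : ∀ᶠ z in 𝓝 (e p), AnalyticAt ℂ G z := hg.eventually_analyticAt
  have hah : ∀ᶠ z in 𝓝 (e p), ∀ i, AnalyticAt ℂ (h i ∘ e.symm) z :=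
    eventually_all.2 fun i => (hh i).eventually_analyticAt
  rcases (hg.deriv).eventually_eq_zero_or_eventually_ne_zero with h0 | h1
  · left
    -- derivative zero near e p
    obtain ⟨r, hr, hr1⟩ := Metric.eventually_nhds_iff_ball.1 (h0.and han)
    have hconst : ∀ z ∈ ball (e p) r, G z = G (e p) := by
      intro z hz
      refine IsOpen.is_const_of_deriv_eq_zero (𝕜 := ℂ) isOpen_ball
        (convex_ball (e p) r).isPreconnected
        (fun w hw => (hr1 w hw).2.differentiableAt.differentiableWithinAt)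
        (fun w hw => (hr1 w hw).1) hz (mem_ball_self hr)
    have hcont : Tendsto e (𝓝 p) (𝓝 (e p)) := (e.continuousAt hp)
    filter_upwards [hcont.eventually (ball_mem_nhds _ hr), e.open_source.mem_nhds hp] with q hq hqs
    have := hconst (e q) hq
    simpa [hG, e.left_inv hqs, e.left_inv hp] using this
  · right
    have h1' : ∀ᶠ z in 𝓝[≠] (e p), deriv G z ≠ 0 ∧ AnalyticAt ℂ G z ∧
        (∀ i, AnalyticAt ℂ (h i ∘ e.symm) z) := by
      filter_upwards [h1, han.filter_mono nhdsWithin_le_nhds,
        hah.filter_mono nhdsWithin_le_nhds] with z a b c using ⟨a, b, c⟩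
    -- pull back to C
    have hcont : Tendsto e (𝓝[≠] p) (𝓝[≠] (e p)) := by
      refine tendsto_nhdsWithin_iff.2 ⟨(e.continuousAt hp).tendsto.mono_left nhdsWithin_le_nhds, ?_⟩
      filter_upwards [self_mem_nhdsWithin, mem_nhdsWithin_of_mem_nhds (e.open_source.mem_nhds hp)]
        with q hq hqs hqe
      exact hq (e.injOn hqs hp hqe)
    filter_upwards [hcont.eventually h1',
      mem_nhdsWithin_of_mem_nhds (e.open_source.mem_nhds hp)] with q hq hqs
    obtain ⟨hd, ha, hi⟩ := hq
    -- the inverse function theorem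
    have hsd : HasStrictFDerivAt G
        (ContinuousLinearEquiv.unitsEquivAut ℂ (Units.mk0 (deriv G (e q)) hd) : ℂ →L[ℂ] ℂ) (e q) :=
      ha.hasStrictDerivAt.hasStrictFDerivAt_equiv hd
    set R := hsd.toOpenPartialHomeomorph G with hR
    have hRc : ∀ x, R x = G x := fun x => rfl
    have hRs : e q ∈ R.source := hsd.mem_toOpenPartialHomeomorph_source
    -- good open set of the plane
    have hev : ∀ᶠ z in 𝓝 (e q), deriv G z ≠ 0 ∧ AnalyticAt ℂ G z ∧
        (∀ i, AnalyticAt ℂ (h i ∘ e.symm) z) := by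
      have a1 : ∀ᶠ z in 𝓝 (e q), deriv G z ≠ 0 :=
        ha.deriv.continuousAt.eventually_ne hd
      filter_upwards [a1, ha.eventually_analyticAt,
        eventually_all.2 fun i => (hi i).eventually_analyticAt] with z x y w using ⟨x, y, w⟩
    obtain ⟨V, hV, hVo, hVq⟩ := _root_.mem_nhds_iff.1 hev
    set R' := R.restrOpen V hVo with hR'
    have hR's : R'.source = R.source ∩ V := R.restrOpen_source V hVo
    refine ⟨e.trans R', ?_, ?_, ?_⟩
    · rw [OpenPartialHomeomorph.trans_source]
      refine ⟨hqs, ?_⟩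
      rw [mem_preimage, hR's]
      exact ⟨hRs, hVq⟩
    · intro x hx
      rw [OpenPartialHomeomorph.trans_source] at hx
      change G (e x) = g x
      simp [hG, e.left_inv hx.1]
    · intro i z hz
      rw [OpenPartialHomeomorph.trans_target] at hz
      obtain ⟨hz1, hz2⟩ := hz
      have hzV : R'.symm z ∈ R'.source := R'.map_target hz1
      rw [hR's] at hzV
      obtain ⟨b1, b2, b3⟩ := hV hzV.2
      have hinv : AnalyticAt ℂ R'.symm z := by
        refine OpenPartialHomeomorph.analyticAt_symm (𝕜 := ℂ) R' (a := z)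
          (i := ContinuousLinearEquiv.unitsEquivAut ℂ (Units.mk0 (deriv G (R'.symm z)) b1)) hz1 b2 ?_
        have : HasStrictFDerivAt G
          (ContinuousLinearEquiv.unitsEquivAut ℂ (Units.mk0 (deriv G (R'.symm z)) b1) : ℂ →L[ℂ] ℂ)
          (R'.symm z) := b2.hasStrictDerivAt.hasStrictFDerivAt_equiv b1
        exact this.hasFDerivAt.fderiv
      have : AnalyticAt ℂ ((h i ∘ e.symm) ∘ R'.symm) z := (b3 i).comp hinv
      exact this

end Vale.Agent.P267.H729
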