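import Mathlib

/-! P267 / H729: removable countable closed sets for bounded holomorphic functions of one variable,
and connectedness of punctured balls. -/

open Set Filter Topology Metric

namespace Vale.Agent.P267.H729

theorem dense_diff_countable {U E : Set ℂ} (hU : IsOpen U) (hE : E.Countable) {z : ℂ} (hz : z ∈ U) :
    z ∈ closure (U \ E) := by
  have hd : Dense (Eᶜ) := hE.dense_compl ℝ
  have := hd.open_subset_closure_inter hU hz
  rwa [sdiff_eq]

/-- two functions continuous on an open set agreeing off a countable set agree. -/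
theorem eqOn_of_countable {U E : Set ℂ} (hU : IsOpen U) (hE : E.Countable) {F G : ℂ → ℂ}
    (hF : ContinuousOn F U) (hG : ContinuousOn G U) (h : EqOn F G (U \ E)) : EqOn F G U := by
  intro z hz
  have hcl := dense_diff_countable hU hE hz
  have hne : (𝓝[U \ E] z).NeBot := mem_closure_iff_nhdsWithin_neBot.1 hcl
  have h1 : Tendsto F (𝓝[U \ E] z) (𝓝 (F z)) :=
    (hF z hz).mono_left (nhdsWithin_mono z sdiff_subset)
  have h2 : Tendsto G (𝓝[U \ E] z) (𝓝 (G z)) :=
    (hG z hz).mono_left (nhdsWithin_mono z sdiff_subset)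
  have h3 : Tendsto F (𝓝[U \ E] z) (𝓝 (G z)) :=
    h2.congr' (by filter_upwards [self_mem_nhdsWithin] with w hw using (h hw).symm)
  exact tendsto_nhds_unique h1 h3

theorem norm_le_of_countable {U E : Set ℂ} (hU : IsOpen U) (hE : E.Countable) {F : ℂ → ℂ}
    (hF : ContinuousOn F U) {M : ℝ} (h : ∀ z ∈ U \ E, ‖F z‖ ≤ M) : ∀ z ∈ U, ‖F z‖ ≤ M := by
  intro z hz
  have hcl := dense_diff_countable hU hE hz
  have hne : (𝓝[U \ E] z).NeBot := mem_closure_iff_nhdsWithin_neBot.1 hcl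
  have h1 : Tendsto (fun w => ‖F w‖) (𝓝[U \ E] z) (𝓝 ‖F z‖) :=
    ((hF z hz).mono_left (nhdsWithin_mono z sdiff_subset)).norm
  exact le_of_tendsto h1 (by filter_upwards [self_mem_nhdsWithin] with w hw using h w hw)

theorem Ioo_not_countable {a b : ℝ} (h : a < b) : ¬ (Ioo a b).Countable := by
  rw [← Cardinal.le_aleph0_iff_set_countable, Cardinal.mk_Ioo_real h, not_le]
  exact Cardinal.aleph0_lt_continuum

/-- a nonempty countable set which is closed in an open set has an isolated point. -/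
theorem exists_isolated {U W : Set ℂ} (hU : IsOpen U) (hW : IsOpen W)
    (hc : (U \ W).Countable) (hne : (U \ W).Nonempty) :
    ∃ z ∈ U \ W, ∃ δ > 0, ball z δ ⊆ U ∧ ball z δ \ {z} ⊆ W := by
  obtain ⟨c, hcU, hcW⟩ := hne
  obtain ⟨r, hr, hrU⟩ := Metric.isOpen_iff.1 hU c hcU
  -- choose a good radius
  have hcount : ((fun z => dist z c) '' (U \ W)).Countable := hc.image _
  obtain ⟨s, hs, hsn⟩ : ∃ s ∈ Ioo (0 : ℝ) r, s ∉ (fun z => dist z c) '' (U \ W) := by
    by_contra hcon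
    push Not at hcon
    exact Ioo_not_countable hr (hcount.mono hcon)
  -- the compact set
  set K : Set ℂ := closedBall c s \ W with hK
  have hKU : closedBall c s ⊆ U := (closedBall_subset_ball hs.2).trans hrU
  have hKsub : K ⊆ U \ W := fun z hz => ⟨hKU hz.1, hz.2⟩
  have hKc : IsClosed K := isClosed_closedBall.sdiff hW
  have hKct : K.Countable := hc.mono hKsub
  have hcK : c ∈ K := ⟨mem_closedBall_self hs.1.le, hcW⟩
  have hnp : ¬ Preperfect K := by
    intro hp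
    obtain ⟨f, hf, hfc, hfi⟩ := (Perfect.mk hKc hp).exists_nat_bool_injection ⟨c, hcK⟩
    have : (range f).Countable := hKct.mono hf
    rw [← Cardinal.le_aleph0_iff_set_countable, Cardinal.mk_range_eq f hfi] at this
    simp at this
    exact absurd this (not_le.2 Cardinal.aleph0_lt_continuum)
  rw [preperfect_iff_nhds] at hnp
  push Not at hnp
  obtain ⟨z, hzK, V, hV, hVz⟩ := hnp
  have hzb : z ∈ ball c s := by
    rcases lt_or_eq_of_le (mem_closedBall.1 hzK.1) with h | h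
    · exact mem_ball.2 h
    · exact absurd ⟨z, hKsub hzK, h⟩ hsn
  obtain ⟨δ, hδ, hδV⟩ := Metric.mem_nhds_iff.1 (inter_mem hV (isOpen_ball.mem_nhds hzb))
  refine ⟨z, hKsub hzK, δ, hδ, fun w hw => hKU (ball_subset_closedBall (hδV hw).2), ?_⟩
  rintro w ⟨hw, hwz⟩
  by_contra hwW
  exact hwz (hVz w ⟨(hδV hw).1, ball_subset_closedBall (hδV hw).2, hwW⟩)

/-- bounded holomorphic functions extend over countable closed sets. -/
theorem exists_extension {U E : Set ℂ} (hU : IsOpen U) (hE : E.Countable) (hUE : IsOpen (U \ E))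
    {f : ℂ → ℂ} (hf : DifferentiableOn ℂ f (U \ E)) {M : ℝ} (hM : ∀ z ∈ U \ E, ‖f z‖ ≤ M) :
    ∃ F : ℂ → ℂ, DifferentiableOn ℂ F U ∧ EqOn F f (U \ E) := by
  classical
  set 𝒲 : Set (Set ℂ) := {W | IsOpen W ∧ W ⊆ U ∧
    ∃ F : ℂ → ℂ, DifferentiableOn ℂ F W ∧ EqOn F f (W \ E)} with h𝒲
  have hch : ∀ z ∈ ⋃₀ 𝒲, ∃ W ∈ 𝒲, z ∈ W := fun z hz => by simpa using hz
  choose! Wz hWz hzW using hch
  have hFz : ∀ W ∈ 𝒲, ∃ F : ℂ → ℂ, DifferentiableOn ℂ F W ∧ EqOn F f (W \ E) := fun W hW => hW.2.2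
  choose! FF hFd hFe using hFz
  set F : ℂ → ℂ := fun z => FF (Wz z) z with hF
  have hop : IsOpen (⋃₀ 𝒲) := isOpen_sUnion fun W hW => hW.1
  have hFW : ∀ W ∈ 𝒲, EqOn F (FF W) W := by
    intro W hW z hz
    have hz' : z ∈ ⋃₀ 𝒲 := mem_sUnion.2 ⟨W, hW, hz⟩
    have hop2 : IsOpen (W ∩ Wz z) := hW.1.inter (hWz z hz').1
    have := eqOn_of_countable hop2 hE (F := FF (Wz z)) (G := FF W)
      ((hFd _ (hWz z hz')).continuousOn.mono inter_subset_right)
      ((hFd _ hW).continuousOn.mono inter_subset_left) (by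
        rintro w ⟨⟨hw1, hw2⟩, hwE⟩
        rw [hFe _ (hWz z hz') ⟨hw2, hwE⟩, hFe _ hW ⟨hw1, hwE⟩])
    exact this ⟨hz, hzW z hz'⟩
  have hFd' : DifferentiableOn ℂ F (⋃₀ 𝒲) := by
    intro z hz
    have h1 : DifferentiableOn ℂ F (Wz z) := (hFd _ (hWz z hz)).congr (hFW _ (hWz z hz))
    exact ((h1 z (hzW z hz)).differentiableAt ((hWz z hz).1.mem_nhds (hzW z hz))).differentiableWithinAt
  have hUE𝒲 : U \ E ∈ 𝒲 := ⟨hUE, sdiff_subset, f, hf, fun z hz => rfl⟩
  have hsub : ⋃₀ 𝒲 ⊆ U := sUnion_subset fun W hW => hW.2.1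
  have hFf : EqOn F f (U \ E) := fun z hz => by
    rw [hFW _ hUE𝒲 hz, hFe _ hUE𝒲 ⟨hz, hz.2⟩]
  have hFM : ∀ z ∈ ⋃₀ 𝒲, ‖F z‖ ≤ M :=
    norm_le_of_countable hop hE hFd'.continuousOn fun z hz => by
      rw [hFf ⟨hsub hz.1, hz.2⟩]; exact hM z ⟨hsub hz.1, hz.2⟩
  have hall : U ⊆ ⋃₀ 𝒲 := by
    by_contra hcon
    have hne : (U \ ⋃₀ 𝒲).Nonempty := by
      rw [not_subset] at hcon
      obtain ⟨z, h1, h2⟩ := hcon
      exact ⟨z, h1, h2⟩
    have hct : (U \ ⋃₀ 𝒲).Countable := hE.mono (by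
      rintro z ⟨h1, h2⟩
      by_contra h3
      exact h2 (mem_sUnion.2 ⟨_, hUE𝒲, h1, h3⟩))
    obtain ⟨z, hz, δ, hδ, hδU, hδW⟩ := exists_isolated hU hop hct hne
    refine hz.2 (mem_sUnion.2 ⟨ball z δ, ⟨isOpen_ball, hδU, ?_⟩, mem_ball_self hδ⟩)
    refine ⟨Function.update F z (limUnder (𝓝[≠] z) F),
      Complex.differentiableOn_update_limUnder_of_bddAbove (ball_mem_nhds z hδ)
        (hFd'.mono hδW) ⟨M, ?_⟩, ?_⟩
    · rintro _ ⟨w, hw, rfl⟩
      exact hFM w (hδW hw)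
    · rintro w ⟨hw, hwE⟩
      have hwz : w ≠ z := by
        rintro rfl
        exact hz.2 (mem_sUnion.2 ⟨_, hUE𝒲, hδU hw, hwE⟩)
      rw [Function.update_of_ne hwz]
      exact hFf ⟨hδU hw, hwE⟩
  exact ⟨F, hFd'.mono hall, hFf⟩

/-- a ball minus a countable set is connected. -/
theorem isPreconnected_ball_diff {c : ℂ} {r : ℝ} {E : Set ℂ} (hE : E.Countable) :
    IsPreconnected (ball c r \ E) := by
  rcases le_or_gt r 0 with hr | hr
  · rw [ball_eq_empty.2 hr]; simpa using isPreconnected_empty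
  set u := OpenPartialHomeomorph.univBall c r with hu
  have hinj : InjOn u univ := by
    have := u.injOn
    rwa [OpenPartialHomeomorph.univBall_source] at this
  have hc : (u ⁻¹' E).Countable := hE.preimage_of_injOn (hinj.mono (subset_univ _))
  have hconn : IsConnected ((u ⁻¹' E)ᶜ) :=
    hc.isConnected_compl_of_one_lt_rank (by simp)
  have himg : u '' ((u ⁻¹' E)ᶜ) = ball c r \ E := by
    have htgt : u.target = ball c r := OpenPartialHomeomorph.univBall_target c hr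
    ext z
    constructor
    · rintro ⟨w, hw, rfl⟩
      refine ⟨?_, hw⟩
      rw [← htgt]
      exact u.map_source (by rw [OpenPartialHomeomorph.univBall_source]; trivial)
    · rintro ⟨hz, hzE⟩
      rw [← htgt] at hz
      exact ⟨u.symm z, by simpa [u.right_inv hz] using hzE, u.right_inv hz⟩
  rw [← himg]
  refine hconn.isPreconnected.image u ?_
  exact (OpenPartialHomeomorph.continuous_univBall c r).continuousOn

end Vale.Agent.P267.H729
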